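import Vale.Agent.Lib.P219.Profile

/-!
The isoperimetric comparison with the space form of curvature `-b²`, in the integrated form given by
the coarea formula, for the Riemannian metrics on `ℝ^(n+1)` having a unit triangular orthonormal
frame with monotone divergences and `div e_0 ≥ n b`.
-/

open MeasureTheory Set Vale.Agent.Lib.P219

namespace Vale.Agent.Results.P219.B_ModelProfile

theorem result {n : ℕ} (hn : 1 ≤ n) {b : ℝ} (hb : 0 ≤ b)
    {a : Fin (n + 1) → Fin (n + 1) → (Fin (n + 1) → ℝ) → ℝ} (ha : IsMonotoneFrame a)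
    (hdiv : 0 < b → ∀ x, (n : ℝ) * b ≤ fieldDiv a 0 x)
    {f : (Fin (n + 1) → ℝ) → ℝ} (hf : ContDiff ℝ 1 f) (hfc : HasCompactSupport f)
    (hf0 : ∀ x, 0 ≤ f x) :
    ∫⁻ s in Ioi (0 : ℝ), ENNReal.ofReal (modelProfile (n + 1) b (volume {x | s < f x}).toReal) ≤
      ENNReal.ofReal (∫ x, gradNorm a f x) :=
  profile_lintegral hn ha hb hdiv hf hfc hf0

end Vale.Agent.Results.P219.B_ModelProfile
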