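import Vale.Agent.Results.P219.A_SharpSobolev
import Vale.Agent.Results.P219.B_ModelProfile

/-!
The sharp Sobolev inequality and the model profile inequality for monotone frames, together.
-/

open MeasureTheory Set Vale.Agent.Lib.P219

namespace Vale.Agent.Results.P219.A0_master

/-- The sharp Sobolev inequality and the model profile bound. -/
theorem result :
    (∀ n : ℕ, 1 ≤ n → ∀ a : Fin (n + 1) → Fin (n + 1) → (Fin (n + 1) → ℝ) → ℝ, IsMonotoneFrame a →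
      ∀ f : (Fin (n + 1) → ℝ) → ℝ, ContDiff ℝ 1 f → HasCompactSupport f → (∀ x, 0 ≤ f x) →
      ((n : ℝ) + 1) * omega (n + 1) ^ (1 / ((n : ℝ) + 1)) *
        (∫ x, f x ^ (((n : ℝ) + 1) / n)) ^ ((n : ℝ) / ((n : ℝ) + 1)) ≤ ∫ x, gradNorm a f x) ∧
    (∀ n : ℕ, 1 ≤ n → ∀ b : ℝ, 0 ≤ b → ∀ a : Fin (n + 1) → Fin (n + 1) → (Fin (n + 1) → ℝ) → ℝ,
      IsMonotoneFrame a → (0 < b → ∀ x, (n : ℝ) * b ≤ fieldDiv a 0 x) →
      ∀ f : (Fin (n + 1) → ℝ) → ℝ, ContDiff ℝ 1 f → HasCompactSupport f → (∀ x, 0 ≤ f x) →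
      ∫⁻ s in Ioi (0 : ℝ), ENNReal.ofReal (modelProfile (n + 1) b (volume {x | s < f x}).toReal) ≤
        ENNReal.ofReal (∫ x, gradNorm a f x)) :=
  ⟨fun _ hn _ ha _ hf hfc hf0 => Vale.Agent.Results.P219.A_SharpSobolev.result hn ha hf hfc hf0,
    fun _ hn _ hb _ ha hdiv _ hf hfc hf0 =>
      Vale.Agent.Results.P219.B_ModelProfile.result hn hb ha hdiv hf hfc hf0⟩

end Vale.Agent.Results.P219.A0_master
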