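import Vale.Agent.Lib.P219.Euclid

/-!
The sharp Euclidean `L¹` Sobolev inequality (equivalently, by the coarea formula, the sharp Euclidean
isoperimetric inequality) for the Riemannian metrics on `ℝ^(n+1)` having a unit triangular
orthonormal frame with monotone divergences.
-/

open MeasureTheory Vale.Agent.Lib.P219

namespace Vale.Agent.Results.P219.A_SharpSobolev

theorem result {n : ℕ} (hn : 1 ≤ n)
    {a : Fin (n + 1) → Fin (n + 1) → (Fin (n + 1) → ℝ) → ℝ} (ha : IsMonotoneFrame a)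
    {f : (Fin (n + 1) → ℝ) → ℝ} (hf : ContDiff ℝ 1 f) (hfc : HasCompactSupport f)
    (hf0 : ∀ x, 0 ≤ f x) :
    ((n : ℝ) + 1) * omega (n + 1) ^ (1 / ((n : ℝ) + 1)) *
      (∫ x, f x ^ (((n : ℝ) + 1) / n)) ^ ((n : ℝ) / ((n : ℝ) + 1)) ≤ ∫ x, gradNorm a f x :=
  euclid_sobolev hn ha hf hfc hf0

end Vale.Agent.Results.P219.A_SharpSobolev
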